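import Vale.Agent.P305.R2.H631.Main

set_option autoImplicit false

namespace Vale.Agent.Results.P305.CoveringRank

open Vale.Agent.P305 Vale.Agent.P305.H287 Vale.Agent.P305.H529 Vale.Agent.P305.H299
  Vale.Agent.P305.R2.H631

/-- (1) Maximum matching in all graphs: one bipartite call on twice the size, plus
`joinNumber G + 1` searches of `O((n+m) log n)` time; (2) the bipartite call alone, plus linear
time, gives a matching with at most `joinNumber G` edges less than a maximum matching; (3) so an
almost-linear time algorithm for bipartite graphs gives one for all graphs with subpolynomial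
`joinNumber`. (4) `offNumber` is at most `r` for unions of pieces of total weight at most `r`,
(5) which gives an almost-linear time algorithm for all unions of pieces of subpolynomial total
weight, (6) among them the disjointness graphs of cylinders over disks, unit balls, arcs and pairs.
(7) Weights of pieces bound induced matchings. (8), (9) The split number is at most the sum of the
induced matching numbers of two parts (after the deletion of a set `X`), and at most twice the rank
distance to bipartite graphs. (10) Time for graphs whose vertex set has two parts, each of a kind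
with parameter `d`, with arbitrary edges between them. (11) Matrices that are nonzero at the edges
of `F`, in one of the two orders, and zero at the pairs of different non-adjacent vertices, bound
the induced matchings of edges of `F`. (12) `offNumber` is at most the size of an induced matching
of edges meeting a vertex set `X` whose deletion leaves packing number at most one in each
component, and at most the split number. (13)-(15) Packing numbers. (16) Searches. -/
theorem result :
    (∀ T : ℕ → ℕ → ℕ, (∀ n n' m m', n ≤ n' → m ≤ m' → T n m ≤ T n' m') →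
      (∃ P, Solves P (fun _ G => G.IsBipartite) fun n G => T n G.edgeSet.ncard) →
      ∃ P C, Solves P (fun _ _ => True) fun n G =>
        C * (T (2 * n) (2 * G.edgeSet.ncard) +
          (joinNumber G + 1) * ((Nat.log 2 n + 1) * (n + G.edgeSet.ncard + 1)))) ∧
    (∀ T : ℕ → ℕ → ℕ, (∀ n n' m m', n ≤ n' → m ≤ m' → T n m ≤ T n' m') →
      (∃ P, Solves P (fun _ G => G.IsBipartite) fun n G => T n G.edgeSet.ncard) →
      ∃ P C, SolvesUpTo P (fun _ G => joinNumber G) fun n G =>
        C * (T (2 * n) (2 * G.edgeSet.ncard) + n + G.edgeSet.ncard + 1)) ∧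
    (AlmostLinear (fun _ G => G.IsBipartite) → ∀ κ : ℕ → ℕ,
      (∀ ε : ℝ, 0 < ε → ∃ c : ℝ, ∀ N : ℕ, (κ N : ℝ) ≤ c * ((N : ℝ) + 1) ^ ε) →
      AlmostLinear fun n G => joinNumber G ≤ κ (n + G.edgeSet.ncard)) ∧
    (∀ (r n : ℕ) (G : SimpleGraph (Fin n)), IsUnionOfPieces r G → offNumber G ≤ r) ∧
    (AlmostLinear (fun _ G => G.IsBipartite) → ∀ κ : ℕ → ℕ,
      (∀ ε : ℝ, 0 < ε → ∃ c : ℝ, ∀ N : ℕ, (κ N : ℝ) ≤ c * ((N : ℝ) + 1) ^ ε) →
      AlmostLinear fun n G => IsUnionOfPieces (κ (n + G.edgeSet.ncard)) G) ∧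
    (∀ (d n : ℕ) (G : SimpleGraph (Fin n)), IsCoCylinder d G → IsUnionOfPieces d G) ∧
    (∀ (c n : ℕ) (H : SimpleGraph (Fin n)) (X : Set (Fin n)), IsPiece c H X →
      inducedMatchingAt H X ≤ c) ∧
    (∀ (n : ℕ) (G : SimpleGraph (Fin n)) (X U W : Set (Fin n)), X ∪ U ∪ W = Set.univ →
      splitNumber G ≤ inducedMatchingAt G X + inducedMatchingIn G U + inducedMatchingIn G W) ∧
    (∀ (n : ℕ) (G : SimpleGraph (Fin n)), splitNumber G ≤ 2 * bipartiteRank G) ∧
    (∀ T : ℕ → ℕ → ℕ, (∀ n n' m m', n ≤ n' → m ≤ m' → T n m ≤ T n' m') →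
      (∃ P, Solves P (fun _ G => G.IsBipartite) fun n G => T n G.edgeSet.ncard) → ∀ d : ℕ,
      ∃ P C, Solves P (fun n G => ∃ U : Set (Fin n), IsSmall d G U ∧ IsSmall d G Uᶜ)
        fun n G => C * (T (2 * n) (2 * G.edgeSet.ncard) +
          (Nat.log 2 n + 1) * (n + G.edgeSet.ncard + 1))) ∧
    (∀ (n : ℕ) (G F : SimpleGraph (Fin n)) (r : ℕ) (K : Fin r → Type) (_ : ∀ j, Field (K j))
      (M : ∀ j, Matrix (Fin n) (Fin n) (K j)),
      (∀ u v, F.Adj u v → G.Adj u v → ∃ j, M j u v ≠ 0 ∨ M j v u ≠ 0) →
      (∀ u v, u ≠ v → ¬ G.Adj u v → ∀ j, M j u v = 0) →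
      inducedMatchingOf G F ≤ ∑ j, (M j).rank) ∧
    (∀ (n : ℕ) (G : SimpleGraph (Fin n)), (∀ X : Set (Fin n),
      (∀ K : G.ConnectedComponent, oddPackingIn G (K.supp \ X) ≤ 1) →
      offNumber G ≤ inducedMatchingAt G X) ∧ offNumber G ≤ splitNumber G) ∧
    (∀ (n : ℕ) (G G₀ : SimpleGraph (Fin n)), G₀ ≤ G → ∀ U : Set (Fin n),
      oddPackingIn G U ≤ oddPackingIn G₀ U + offMatching G G₀) ∧
    (∀ (n : ℕ) (G : SimpleGraph (Fin n)) (U W : Set (Fin n)),
      oddPackingIn G (U ∪ W) ≤ inducedMatchingIn G U + inducedMatchingIn G W) ∧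
    (∀ (n : ℕ) (G : SimpleGraph (Fin n)) (W : Set (Fin n)), IsDisjointness 2 G W →
      oddPackingIn G W ≤ 1) ∧
    (∀ (n : ℕ) (G : SimpleGraph (Fin n)), searches G ≤ joinNumber G ∧
      oddPacking G ≤ splitNumber G) :=
  ⟨join_reduction, join_approx, join_almostLinear, fun _ _ _ h => offNumber_pieces h,
    pieces_almostLinear, fun _ _ _ h => pieces_cylinder h, fun _ _ _ _ h => h.le,
    fun _ G _ _ _ h => split_le G h, fun _ G => split_le_rank G, small_reduction,
    fun _ G F _ K iK M h1 h2 => @of_le_rank _ G F _ K iK M h1 h2,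
    fun _ G => ⟨fun X h => offNumber_le_im G X h, off_le_split G⟩,
    fun _ G G₀ h U => in_le_off G G₀ h U, fun _ G U W => in_union_le G U W,
    fun _ G W h => in_le_one_of_pairs G W h,
    fun _ G => ⟨searches_le_join G, oddPacking_le_split G⟩⟩

end Vale.Agent.Results.P305.CoveringRank
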