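import Vale.Agent.P305.R2.H299.Dich
import Vale.Agent.P305.R2.H89.Cone
import Vale.Agent.P305.R2.H89.Sharp

set_option autoImplicit false

namespace Vale.Agent.Results.P305.PartitionDichotomy

open Vale.Agent.P305 Vale.Agent.P305.H529 Vale.Agent.P305.H287 Vale.Agent.P305.H299
  Vale.Agent.P305.H89

/-- Two theorems on classes of graphs of bounded odd packing number.

A. A dichotomy for maximum matching in graphs partitioned into parts from hereditary classes.
`H 1, ..., H c` are arbitrary classes of graphs closed under induced subgraphs (`H i` contains the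
graph without vertices), and `Partitioned H` is the class of all graphs whose vertices can be
partitioned into `c` parts, part `i` inducing a graph in `H i`, with arbitrary edges between
different parts. Algorithms are given the graph only, not the partition.

(1) Easy classes: if no `H i` contains all disjoint unions of edges, and at most two of them contain
all edgeless graphs, then a maximum matching takes the time of bipartite graphs of twice the size
plus `O((n + m) log n)`, and (2) almost-linear time if bipartite graphs take almost-linear time.
(3) Hard classes: if three of the classes contain all edgeless graphs, or one contains all disjoint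
unions of edges and another one all edgeless graphs, then all graphs take, up to constant factors
and an additive linear term, the time of the graphs of the class with `n + 2m` vertices and `5m`
edges; (4) almost-linear time is achievable on the class if and only if it is achievable on all
graphs. (5) Every family is easy, or hard, or one of its members contains all disjoint unions of
edges and all others omit an edgeless graph. (6), (7) The partitions into `c ≥ 2` parts from one
hereditary class `K` are easy or hard, and they are easy if and only if `K` omits an edgeless graph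
or `c = 2` and `K` omits a disjoint union of edges. (8) In an easy class the odd packing number is
bounded.

B. Far graphs of a metric space: the vertices are represented by points such that every vertex
is nearer to its non-neighbours than to its neighbours. Far graphs of (9) hyperbolic 3-space, (10)
Euclidean 3-space and (11) the 3-sphere, in the last case with all non-neighbours at distance less
than `π / 2`, have packing number at most one. (12) Finite far graphs of Euclidean space are far
graphs of hyperbolic space. (13) Complements of intersection graphs of equal balls of Euclidean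
space are far graphs of Euclidean space. (14) Complements of intersection graphs of closed balls of
3-space whose radii are `κ ≤ 1` times the distance of the centre to a plane are far graphs of
hyperbolic space (for `κ < 1` these balls are equal balls of hyperbolic space, for `κ = 1` they
touch the plane). (15) Points of the 3-sphere, adjacent iff their distance is larger than `ρ`, give
a far graph as in (11) if `ρ < π / 2`; (16) for `ρ = π / 2` there is such a graph on six vertices
with packing number at least two. (17) If every component is a graph as in (9) or (11), then maximum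
matching takes the time of one bipartite call on twice the size, plus `O((n + m) log n)`. (18) If
this holds after the deletion of `X`, then `searches G` is at most the size of an induced matching
of edges meeting `X`; (19) so almost-linear time, if bipartite graphs have it, for all graphs with
such an `X` for which this size is subpolynomial. -/
theorem result :
    (∀ (c : ℕ) (H : Fin c → GraphClass), (∀ i, Hereditary (H i)) →
      (Easy H → ∀ T : ℕ → ℕ → ℕ, (∀ n n' m m', n ≤ n' → m ≤ m' → T n m ≤ T n' m') →
        (∃ P, Solves P (fun _ G => G.IsBipartite) fun n G => T n G.edgeSet.ncard) →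
        ∃ P C, Solves P (Partitioned H) fun n G => C * (T (2 * n) (2 * G.edgeSet.ncard) +
          (Nat.log 2 n + 1) * (n + G.edgeSet.ncard + 1))) ∧
      (Easy H → AlmostLinear (fun _ G => G.IsBipartite) → AlmostLinear (Partitioned H)) ∧
      (Hard H → ∀ T : ℕ → ℕ → ℕ, (∃ P, Solves P (Partitioned H) fun n G => T n G.edgeSet.ncard) →
        ∃ P C, Solves P (fun _ _ => True) fun n G =>
          C * (T (n + 2 * G.edgeSet.ncard) (5 * G.edgeSet.ncard) + n + G.edgeSet.ncard + 1)) ∧
      (Hard H → (AlmostLinear (Partitioned H) ↔ AlmostLinear fun _ _ => True)) ∧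
      (Easy H ∨ Hard H ∨ ∃ i, HasMatchings (H i) ∧ ∀ j, i ≠ j → ¬ HasEdgeless (H j)) ∧
      (∀ K : GraphClass, Hereditary K → 2 ≤ c →
        Easy (fun _ : Fin c => K) ∨ Hard (fun _ : Fin c => K)) ∧
      (∀ K : GraphClass, Hereditary K → 2 ≤ c →
        (Easy (fun _ : Fin c => K) ↔ ¬ HasEdgeless K ∨ c = 2 ∧ ¬ HasMatchings K)) ∧
      (Easy H → ∃ N : ℕ, ∀ (n : ℕ) (G : SimpleGraph (Fin n)), Partitioned H n G →
        oddPacking G ≤ N)) ∧
    (∀ (n : ℕ) (G : SimpleGraph (Fin n)) (U : Set (Fin n)),
      IsFarHyperbolic (G.induce U) → oddPackingIn G U ≤ 1) ∧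
    (∀ (n : ℕ) (G : SimpleGraph (Fin n)) (U : Set (Fin n)),
      IsFarEuclidean (G.induce U) → oddPackingIn G U ≤ 1) ∧
    (∀ (n : ℕ) (G : SimpleGraph (Fin n)) (U : Set (Fin n)),
      IsFarSpherical (G.induce U) → oddPackingIn G U ≤ 1) ∧
    (∀ (V : Type) [Finite V] (G : SimpleGraph V), IsFarEuclidean G → IsFarHyperbolic G) ∧
    (∀ (V : Type) (G : SimpleGraph V), IsCoBall G → IsFarEuclidean G) ∧
    (∀ (V : Type) [Finite V] (G : SimpleGraph V) (κ : ℝ), 0 < κ → κ ≤ 1 → IsCoCone κ G →
      IsFarHyperbolic G) ∧
    (∀ (V : Type) (G : SimpleGraph V) (ρ : ℝ), ρ < Real.pi / 2 → IsSphereGraph ρ G →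
      IsFarSpherical G) ∧
    (∃ G : SimpleGraph (Fin 6), IsSphereGraph (Real.pi / 2) G ∧ 2 ≤ oddPackingIn G Set.univ) ∧
    (∀ T : ℕ → ℕ → ℕ, (∀ n n' m m', n ≤ n' → m ≤ m' → T n m ≤ T n' m') →
      (∃ P, Solves P (fun _ G => G.IsBipartite) fun n G => T n G.edgeSet.ncard) →
      ∃ P C, Solves P
        (fun _ G => ∀ K : G.ConnectedComponent, IsFarHyperbolic (G.induce K.supp) ∨
          IsFarSpherical (G.induce K.supp))
        fun n G => C * (T (2 * n) (2 * G.edgeSet.ncard) +
          (Nat.log 2 n + 1) * (n + G.edgeSet.ncard + 1))) ∧
    (∀ (n : ℕ) (G : SimpleGraph (Fin n)) (X : Set (Fin n)),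
      (∀ K : G.ConnectedComponent, IsFarHyperbolic (G.induce (K.supp \ X)) ∨
        IsFarSpherical (G.induce (K.supp \ X))) →
      searches G ≤ inducedMatchingAt G X) ∧
    (AlmostLinear (fun _ G => G.IsBipartite) → ∀ κ : ℕ → ℕ,
      (∀ ε : ℝ, 0 < ε → ∃ c : ℝ, ∀ N : ℕ, (κ N : ℝ) ≤ c * ((N : ℝ) + 1) ^ ε) →
      AlmostLinear fun n G => ∃ X : Set (Fin n),
        inducedMatchingAt G X ≤ κ (n + G.edgeSet.ncard) ∧
        ∀ K : G.ConnectedComponent, IsFarHyperbolic (G.induce (K.supp \ X)) ∨
          IsFarSpherical (G.induce (K.supp \ X))) := by
  have key : ∀ (n : ℕ) (G : SimpleGraph (Fin n)) (U : Set (Fin n)),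
      IsFarHyperbolic (G.induce U) ∨ IsFarSpherical (G.induce U) → oddPackingIn G U ≤ 1 := by
    rintro n G U (h | h)
    · exact in_farH G U h
    · exact in_farS G U h
  refine ⟨fun c H hH => ⟨easy_reduction hH, easy_almostLinear hH, hard_reduction hH,
      hard_almostLinear hH, easy_or_hard H, fun _ hK hc => easy_or_hard_const hc hK,
      fun _ hK hc => easy_const_iff hc hK, packing_of_easy hH⟩,
    fun _ G U h => in_farH G U h, fun _ G U h => in_farE G U h,
    fun _ G U h => in_farS G U h, fun V _ G h => farH_of_farE h, fun V G h => farE_of_coball h,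
    fun V _ G κ h1 h2 h => farH_of_cone h1 h2 h, fun V G ρ h1 h => farS_of_sphere h1 h,
    ⟨twoTriangles, sharp_sphere, sharp_packing⟩, ?_, ?_, ?_⟩
  · intro T hT hP
    obtain ⟨P, C, h⟩ := one_reduction T hT hP
    exact ⟨P, C, h.mono (fun _ G hG K => key _ G _ (hG K)) fun _ _ _ => le_rfl⟩
  · exact fun _ G X h => searches_le_im G X fun K => key _ G _ (h K)
  · intro hB κ hκ
    obtain ⟨P, T, hP, hT⟩ := comp_near_almostLinear hB κ hκ
    exact ⟨P, T, hP.mono (fun _ G ⟨X, hX, h⟩ => ⟨X, hX, fun K => key _ G _ (h K)⟩)
      fun _ _ _ => le_rfl, hT⟩

end Vale.Agent.Results.P305.PartitionDichotomy
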