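import Vale.Agent.P305.R2.H434.Near

set_option autoImplicit false

namespace Vale.Agent.Results.P305.PlaneDefect

open Vale.Agent.P305 Vale.Agent.P305.H529 Vale.Agent.P305.H287 Vale.Agent.P305.H52
open Vale.Agent.P305.H434

/-- Part I, all graphs. (1) Maximum matching in every graph `G`: one bipartite call on twice the
size, plus `defect G + 1` searches of `O((n + m) log n)` time; (2) the bipartite call alone, plus
linear time, gives a matching with at most `defect G` edges less than a maximum matching;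
(3) almost-linear time for bipartite graphs gives it for all graphs of subpolynomial defect.

Part II, the defect. (4) For every family `S` of path-connected sets of the plane and every vertex
set `X`, `N (N - 1) ≤ c` with `N = p(U) - k`, where `p(U) = oddPackingIn G U`, `k = meeting G U X S`
and `c` is the number of wild pairs; (5) so `p(U) ≤ defectIn G U + 1`. (6) The defect is zero for
disjointness graphs of pseudo-disc families, and (7) at most the induced matching number. (8) Edits: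
`defectIn G U ≤ k + √c` if `H[U \ X]` is the disjointness graph of a pseudo-disc family, `k` bounds
the induced matchings of edges of `G[U]` that meet `X` or are not in `H`, and `c` is the number of
ordered pairs of vertices of `U \ X` adjacent in `H` and not in `G`.

Part III, stability of the packing number. (9) For all graphs `G`, `H` on one vertex set and `k`,
`c` as in (8), `N (N - q) ≤ q c` with `N = p_G(U) - k` and `q = p_H(U \ X)`. (10) Almost-linear time
for bipartite graphs gives it for all graphs `G` with some `H`, `X` such that `q`, `k` and `c` are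
subpolynomial. -/
theorem result :
    (∀ T : ℕ → ℕ → ℕ, (∀ n n' m m', n ≤ n' → m ≤ m' → T n m ≤ T n' m') →
      (∃ P, Solves P (fun _ G => G.IsBipartite) fun n G => T n G.edgeSet.ncard) →
      ∃ P C, Solves P (fun _ _ => True) fun n G =>
        C * (T (2 * n) (2 * G.edgeSet.ncard) +
          (defect G + 1) * ((Nat.log 2 n + 1) * (n + G.edgeSet.ncard + 1)))) ∧
    (∀ T : ℕ → ℕ → ℕ, (∀ n n' m m', n ≤ n' → m ≤ m' → T n m ≤ T n' m') →
      (∃ P, Solves P (fun _ G => G.IsBipartite) fun n G => T n G.edgeSet.ncard) →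
      ∃ P C, SolvesUpTo P (fun _ G => defect G) fun n G =>
        C * (T (2 * n) (2 * G.edgeSet.ncard) + n + G.edgeSet.ncard + 1)) ∧
    (AlmostLinear (fun _ G => G.IsBipartite) → ∀ κ : ℕ → ℕ,
      (∀ ε : ℝ, 0 < ε → ∃ c : ℝ, ∀ N : ℕ, (κ N : ℝ) ≤ c * ((N : ℝ) + 1) ^ ε) →
      AlmostLinear fun n G => defect G ≤ κ (n + G.edgeSet.ncard)) ∧
    (∀ (n : ℕ) (G : SimpleGraph (Fin n)) (U X : Set (Fin n)) (S : Fin n → Set ℂ),
      (∀ v, Jo (S v)) →
      (oddPackingIn G U - meeting G U X S) * (oddPackingIn G U - meeting G U X S - 1) ≤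
        (wild G U X S).ncard) ∧
    (∀ (n : ℕ) (G : SimpleGraph (Fin n)) (U : Set (Fin n)),
      oddPackingIn G U ≤ defectIn G U + 1) ∧
    (∀ (n : ℕ) (G : SimpleGraph (Fin n)),
      (∀ K : G.ConnectedComponent, IsCoPseudo (G.induce K.supp)) → defect G = 0) ∧
    (∀ (n : ℕ) (G : SimpleGraph (Fin n)) (U : Set (Fin n)),
      defectIn G U ≤ inducedMatchingAt G U) ∧
    (∀ (n : ℕ) (G H : SimpleGraph (Fin n)) (U X : Set (Fin n)),
      IsCoPseudo (H.induce (U \ X)) → ∀ k : ℕ,
      (∀ (m : ℕ) (a b : Fin m → Fin n), IsInducedMatchingAt G U m a b → (∀ i, b i ∈ U) →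
        (∀ i, a i ∈ X ∨ b i ∈ X ∨ ¬ H.Adj (a i) (b i)) → m ≤ k) →
      defectIn G U ≤ k + Nat.sqrt {p : Fin n × Fin n | p.1 ∈ U \ X ∧ p.2 ∈ U \ X ∧
        H.Adj p.1 p.2 ∧ ¬ G.Adj p.1 p.2}.ncard) ∧
    (∀ (n : ℕ) (G H : SimpleGraph (Fin n)) (U X : Set (Fin n)) (k : ℕ),
      (∀ (m : ℕ) (a b : Fin m → Fin n), IsInducedMatchingAt G U m a b → (∀ i, b i ∈ U) →
        (∀ i, a i ∈ X ∨ b i ∈ X ∨ ¬ H.Adj (a i) (b i)) → m ≤ k) →
      (oddPackingIn G U - k) * (oddPackingIn G U - k - oddPackingIn H (U \ X)) ≤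
        oddPackingIn H (U \ X) * {p : Fin n × Fin n | p.1 ∈ U \ X ∧ p.2 ∈ U \ X ∧
          H.Adj p.1 p.2 ∧ ¬ G.Adj p.1 p.2}.ncard) ∧
    (AlmostLinear (fun _ G => G.IsBipartite) → ∀ κ : ℕ → ℕ,
      (∀ ε : ℝ, 0 < ε → ∃ c : ℝ, ∀ N : ℕ, (κ N : ℝ) ≤ c * ((N : ℝ) + 1) ^ ε) →
      AlmostLinear fun n G => ∃ (H : SimpleGraph (Fin n)) (X : Set (Fin n)),
        oddPackingIn H Xᶜ ≤ κ (n + G.edgeSet.ncard) ∧
        (∀ (m : ℕ) (a b : Fin m → Fin n), IsInducedMatchingAt G Set.univ m a b →
          (∀ i, a i ∈ X ∨ b i ∈ X ∨ ¬ H.Adj (a i) (b i)) → m ≤ κ (n + G.edgeSet.ncard)) ∧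
        {p : Fin n × Fin n | p.1 ∉ X ∧ p.2 ∉ X ∧ H.Adj p.1 p.2 ∧ ¬ G.Adj p.1 p.2}.ncard ≤
          κ (n + G.edgeSet.ncard)) :=
  ⟨defect_reduction, defect_apx, defect_almostLinear, fun _ G U X S hS => wild_count G U X S hS,
    fun _ G U => packing_le_defect G U, fun _ G h => defect_eq_zero G h,
    fun _ G U => defect_le_im G U, fun _ G H U X hH k hk => defect_edit G H U X hH k hk,
    fun _ G H U X k hk => stability G H U X k hk, edit_almostLinear⟩

end Vale.Agent.Results.P305.PlaneDefect
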