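import Vale.Agent.P305.R2.H52.Tower
import Vale.Agent.P305.R2.H52.Curves
import Vale.Agent.P305.R2.H273.Disk
import Vale.Agent.P305.R2.H273.Convex
import Vale.Agent.P305.R2.H752.Hom
import Vale.Agent.P305.R2.H752.Arcs
import Vale.Agent.P305.R2.H862.Stereo
import Vale.Agent.P305.R2.H735.Obtuse

set_option autoImplicit false

namespace Vale.Agent.Results.P305.PseudoDiscs

open Vale.Agent.P305 Vale.Agent.P305.H529 Vale.Agent.P305.H287 Vale.Agent.P305.H52
open Vale.Agent.P305.H273 Vale.Agent.P305.R2.H457 Vale.Agent.P305.R2.H862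
open Vale.Agent.P305.H752 (IsHalfPlane Homothetic SegNonCross)
open Vale.Agent.P305.R2.H735 (IsObtuse)

/-- `IsPlane G`: `G` is bipartite, or the disjointness graph of a family of pseudo-discs of the plane
(`IsCoPseudo`, no convexity), or of discs of a length metric on a plane set (`IsCoGeo`), of the
sphere (`IsCoAngle`) or of a planar graph with edge lengths (`IsCoPlanarBall`), or of non-piercing
connected subgraphs of a planar graph (`IsCoNonPiercing`).

(1) If all components are `IsPlane`, then maximum matching takes the time of bipartite graphs of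
twice the size, plus `O((n + m) log n)`. (2) Almost-linear time, if bipartite graphs have it, for all
graphs with a vertex set `X` such that `i(X) = inducedMatchingAt G X` is subpolynomial and after the
deletion of `X` every component gives an `IsPlane` graph. (3) The packing number
`p(U) = oddPackingIn G U` is at most one if `G[U]` is `IsPlane`. (4) `p(Y) ≤ i(X) + d + 1` if
`G[Y \ X]` is `IsCoTower d`, for instance (5) the disjointness graph of products of pseudo-discs with
boxes of `d`-dimensional space. (6), (7) So time `T(2n,2m) + O((n + m) log n)` for fixed `d`, and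
almost-linear time if bipartite graphs have it and `i(X)` and `d` are subpolynomial.

(8), (9) The condition on pairs of sets is needed: all graphs take, up to constant factors and an
additive linear term, the time of disjointness graphs of compact convex sets of the plane, so
almost-linear time on these is equivalent to almost-linear time on all graphs. (10) The same for
disjointness graphs of simple arcs of the plane. (11)-(17) Examples of (1)-(3): complements of disk
graphs of a norm and of circular-arc graphs; convex sets any two of which are homothetic or do not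
cross, and half-planes; closed discs of a geodesic metric space with a continuous injection to the
plane; spherical caps; discs and exteriors of discs; sign graphs of rank three. -/
theorem result :
    (∀ T : ℕ → ℕ → ℕ, (∀ n n' m m', n ≤ n' → m ≤ m' → T n m ≤ T n' m') →
      (∃ P, Solves P (fun _ G => G.IsBipartite) fun n G => T n G.edgeSet.ncard) →
      ∃ P C, Solves P (fun _ G => ∀ K : G.ConnectedComponent, IsPlane (G.induce K.supp))
        fun n G => C * (T (2 * n) (2 * G.edgeSet.ncard) +
          (Nat.log 2 n + 1) * (n + G.edgeSet.ncard + 1))) ∧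
    (AlmostLinear (fun _ G => G.IsBipartite) → ∀ κ : ℕ → ℕ,
      (∀ ε : ℝ, 0 < ε → ∃ c : ℝ, ∀ N : ℕ, (κ N : ℝ) ≤ c * ((N : ℝ) + 1) ^ ε) →
      AlmostLinear fun n G => ∃ X : Set (Fin n),
        inducedMatchingAt G X ≤ κ (n + G.edgeSet.ncard) ∧
        ∀ K : G.ConnectedComponent, IsPlane (G.induce (K.supp \ X))) ∧
    (∀ (n : ℕ) (G : SimpleGraph (Fin n)) (U : Set (Fin n)),
      IsPlane (G.induce U) → oddPackingIn G U ≤ 1) ∧
    (∀ (n d : ℕ) (G : SimpleGraph (Fin n)) (X Y : Set (Fin n)),
      IsCoTower d (G.induce (Y \ X)) → oddPackingIn G Y ≤ inducedMatchingAt G X + (d + 1)) ∧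
    (∀ (V : Type) (d : ℕ) (G : SimpleGraph V) (F : V → Set ℂ) (l u : V → Fin d → ℝ),
      (∀ v, Jo (F v)) → (∀ a b, a ≠ b → (F a ∩ F b).Nonempty → Tame (F a) (F b)) →
      (∀ v, l v ≤ u v) → (∀ a b, a ≠ b → (G.Adj a b ↔
        Disjoint (F a ×ˢ Set.Icc (l a) (u a)) (F b ×ˢ Set.Icc (l b) (u b)))) → IsCoTower d G) ∧
    (∀ (d : ℕ) (T : ℕ → ℕ → ℕ), (∀ n n' m m', n ≤ n' → m ≤ m' → T n m ≤ T n' m') →
      (∃ P, Solves P (fun _ G => G.IsBipartite) fun n G => T n G.edgeSet.ncard) →
      ∃ P C, Solves P (fun _ G => IsCoTower d G)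
        fun n G => C * (T (2 * n) (2 * G.edgeSet.ncard) +
          (Nat.log 2 n + 1) * (n + G.edgeSet.ncard + 1))) ∧
    (AlmostLinear (fun _ G => G.IsBipartite) → ∀ κ : ℕ → ℕ,
      (∀ ε : ℝ, 0 < ε → ∃ c : ℝ, ∀ N : ℕ, (κ N : ℝ) ≤ c * ((N : ℝ) + 1) ^ ε) →
      AlmostLinear fun n G => ∃ (X : Set (Fin n)) (d : ℕ),
        inducedMatchingAt G X ≤ κ (n + G.edgeSet.ncard) ∧ d ≤ κ (n + G.edgeSet.ncard) ∧
        IsCoTower d (G.induce Xᶜ)) ∧
    (∀ T : ℕ → ℕ → ℕ, (∃ P, Solves P (fun _ G => IsCoConvexSet G) fun n G => T n G.edgeSet.ncard) →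
      ∃ P C, Solves P (fun _ _ => True) fun n G =>
        C * (T (n + 2 * G.edgeSet.ncard) (5 * G.edgeSet.ncard) + n + G.edgeSet.ncard + 1)) ∧
    (AlmostLinear (fun _ G => IsCoConvexSet G) ↔ AlmostLinear fun _ _ => True) ∧
    (AlmostLinear (fun _ G => IsCoCurve G) ↔ AlmostLinear fun _ _ => True) ∧
    (∀ (V : Type) (G : SimpleGraph V), IsCoDisk G → IsCoPseudo G) ∧
    (∀ (V : Type) (G : SimpleGraph V), IsCoArc G → IsCoPseudo G) ∧
    (∀ (V : Type) (G : SimpleGraph V) (S : V → Set ℂ), (∀ v, Convex ℝ (S v)) →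
      (∀ u v, u ≠ v → (S u ∩ S v).Nonempty → IsHalfPlane (S u) ∨ IsHalfPlane (S v) ∨
        Homothetic (S u) (S v) ∨ SegNonCross (S u) (S v)) →
      (∀ u v, u ≠ v → (G.Adj u v ↔ Disjoint (S u) (S v))) → IsCoPseudo G) ∧
    (∀ (V : Type) (G : SimpleGraph V) (M : Type) [MetricSpace M] (e : M → ℂ), Continuous e →
      Function.Injective e → IsGeodesic M → ∀ (c : V → M) (r : V → ℝ), (∀ v, 0 ≤ r v) →
      (∀ u v, u ≠ v → (G.Adj u v ↔
        Disjoint (Metric.closedBall (c u) (r u)) (Metric.closedBall (c v) (r v)))) →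
      IsCoGeo G) ∧
    (∀ (V : Type) (G : SimpleGraph V), IsCoCap G → IsCoAngle G) ∧
    (∀ (V : Type) (G : SimpleGraph V), IsCoDiskExterior G → IsCoAngle G) ∧
    (∀ (V : Type) (G : SimpleGraph V), IsObtuse G → IsCoAngle G) :=
  ⟨plane_reduction, plane_near, fun _ G U h => in_plane G U h,
    fun _ _ G X Y h => tower_le_add G X Y h,
    fun _ _ _ F l u h1 h2 h3 h4 => cotower_prod F l u h1 h2 h3 h4, tower_reduction, tower_near,
    all_of_coconvex, almostLinear_coconvex, almostLinear_cocurve, fun _ _ h => codisk_copseudo h,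
    fun _ G h => H752.isCoPseudo_of_isCoArc G h,
    fun _ G S h1 h2 h3 => H752.isCoPseudo_of_convex G S h1 h2 h3,
    fun _ G _ _ e he hi hM c r hr h => isCoGeo_of_geodesic G e he hi hM c r hr h,
    fun _ _ h => h.isCoAngle, fun _ _ h => h.isCoCap.isCoAngle, fun _ _ h => h.isCoAngle⟩

end Vale.Agent.Results.P305.PseudoDiscs
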